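import Mathlib

namespace Vale.Agent.Results.P134.SeparableSolutions

open scoped BigOperators

/-- first derivative of `u` at `x` along the `i`-th coordinate line: `∂_i u (x)` -/
noncomputable def d1 {n : ℕ} (u : (Fin n → ℝ) → ℝ) (i : Fin n) (x : Fin n → ℝ) : ℝ :=
  deriv (fun s : ℝ => u (x + s • Pi.single i (1 : ℝ))) 0

/-- second derivative of `u` at `x` along the `i`-th coordinate line: `∂_i² u (x)` -/
noncomputable def d2 {n : ℕ} (u : (Fin n → ℝ) → ℝ) (i : Fin n) (x : Fin n → ℝ) : ℝ :=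
  deriv (deriv (fun s : ℝ => u (x + s • Pi.single i (1 : ℝ)))) 0

/-- the Laplacian `Δ u = ∑ i, ∂_i² u` -/
noncomputable def lap {n : ℕ} (u : (Fin n → ℝ) → ℝ) (x : Fin n → ℝ) : ℝ := ∑ i, d2 u i x

/-- the first `m` coordinates `x'` of `x ∈ ℝ^(m+1)` -/
def head {m : ℕ} (x : Fin (m + 1) → ℝ) : Fin m → ℝ := fun j => x j.castSucc

theorem head_add_castSucc {m : ℕ} (x : Fin (m + 1) → ℝ) (j : Fin m) (s : ℝ) :
    head (x + s • Pi.single j.castSucc (1 : ℝ)) = head x + s • Pi.single j (1 : ℝ) := by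
  funext k
  by_cases h : k = j
  · subst h; simp [head]
  · have h' : k.castSucc ≠ j.castSucc := fun hh => h (Fin.castSucc_injective _ hh)
    simp [head, Pi.single_eq_of_ne h, Pi.single_eq_of_ne h']

theorem last_add_castSucc {m : ℕ} (x : Fin (m + 1) → ℝ) (j : Fin m) (s : ℝ) :
    (x + s • (Pi.single j.castSucc (1 : ℝ) : Fin (m + 1) → ℝ)) (Fin.last m) = x (Fin.last m) := by
  have h' : Fin.last m ≠ j.castSucc := (Fin.castSucc_lt_last j).ne'
  simp

theorem head_add_last {m : ℕ} (x : Fin (m + 1) → ℝ) (s : ℝ) :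
    head (x + s • Pi.single (Fin.last m) (1 : ℝ)) = head x := by
  funext k
  have h' : k.castSucc ≠ Fin.last m := (Fin.castSucc_lt_last k).ne
  simp [head]

theorem last_add_last {m : ℕ} (x : Fin (m + 1) → ℝ) (s : ℝ) :
    (x + s • (Pi.single (Fin.last m) (1 : ℝ) : Fin (m + 1) → ℝ)) (Fin.last m) = x (Fin.last m) + s := by
  simp

/-- algebraic core, additive case -/
theorem add_core {P : Type*} (A a : P → ℝ) (B b : ℝ → ℝ) (hb : Function.Injective b)
    (h : ∀ p t, A p + B t = (a p + b t) ^ 3 - (a p + b t)) (p₁ p₂ : P) : a p₁ = a p₂ := by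
  by_contra hne
  have hd : a p₁ - a p₂ ≠ 0 := sub_ne_zero.2 hne
  have key : ∀ t t', t ≠ t' → b t + b t' + (a p₁ + a p₂) = 0 := by
    intro t t' htt
    have hbt : b t - b t' ≠ 0 := sub_ne_zero.2 fun hh => htt (hb hh)
    have e1 := h p₁ t
    have e2 := h p₂ t
    have e3 := h p₁ t'
    have e4 := h p₂ t'
    have : 3 * (a p₁ - a p₂) * (b t - b t') * (b t + b t' + (a p₁ + a p₂)) = 0 := by
      linear_combination e3 - e4 - e1 + e2
    rcases mul_eq_zero.1 this with h1 | h1
    · exact absurd h1 (mul_ne_zero (mul_ne_zero (by norm_num) hd) hbt)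
    · exact h1
  have k1 := key 0 1 (by norm_num)
  have k2 := key 0 2 (by norm_num)
  have : b 1 = b 2 := by linarith
  exact absurd (hb this) (by norm_num)

/-- algebraic core, multiplicative case -/
theorem mul_core {P : Type*} (A a : P → ℝ) (B b : ℝ → ℝ) (hb : Function.Injective b)
    (ha : ∀ p, a p ≠ 0)
    (h : ∀ p t, A p * b t + a p * B t = (a p * b t) ^ 3 - a p * b t) (p₁ p₂ : P) :
    a p₁ ^ 2 = a p₂ ^ 2 := by
  by_contra hne
  have hd : a p₁ ^ 2 - a p₂ ^ 2 ≠ 0 := sub_ne_zero.2 hne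
  set c₁ := a p₁ * a p₂ * (a p₁ ^ 2 - a p₂ ^ 2) with hc₁
  have hc₁0 : c₁ ≠ 0 := mul_ne_zero (mul_ne_zero (ha _) (ha _)) hd
  set c₀ := A p₁ * a p₂ - A p₂ * a p₁ with hc₀
  have key : ∀ t, b t * (c₁ * b t ^ 2 - c₀) = 0 := by
    intro t
    have e1 := h p₁ t
    have e2 := h p₂ t
    rw [hc₁, hc₀]
    linear_combination (-(a p₂)) * e1 + a p₁ * e2
  -- among the values at 0,1,2,3 at most one vanishes, the others have equal squares
  have sq : ∀ t t', b t ≠ 0 → b t' ≠ 0 → b t ^ 2 = b t' ^ 2 := by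
    intro t t' h1 h2
    have k1 := (mul_eq_zero.1 (key t)).resolve_left h1
    have k2 := (mul_eq_zero.1 (key t')).resolve_left h2
    have : c₁ * (b t ^ 2 - b t' ^ 2) = 0 := by linear_combination k1 - k2
    have := (mul_eq_zero.1 this).resolve_left hc₁0
    linarith
  have three : ∀ t₁ t₂ t₃ : ℝ, t₁ ≠ t₂ → t₁ ≠ t₃ → t₂ ≠ t₃ → b t₁ ≠ 0 → b t₂ ≠ 0 → b t₃ ≠ 0 → False := by
    intro t₁ t₂ t₃ h12 h13 h23 z1 z2 z3
    have s12 := sq t₁ t₂ z1 z2
    have s13 := sq t₁ t₃ z1 z3
    have n12 : b t₁ ≠ b t₂ := fun hh => h12 (hb hh)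
    have n13 : b t₁ ≠ b t₃ := fun hh => h13 (hb hh)
    have n23 : b t₂ ≠ b t₃ := fun hh => h23 (hb hh)
    have a12 : b t₁ = - b t₂ := by
      rcases sq_eq_sq_iff_eq_or_eq_neg.1 s12 with hh | hh
      · exact absurd hh n12
      · exact hh
    have a13 : b t₁ = - b t₃ := by
      rcases sq_eq_sq_iff_eq_or_eq_neg.1 s13 with hh | hh
      · exact absurd hh n13
      · exact hh
    exact n23 (by linarith)
  by_cases z0 : b 0 = 0
  · have nz : ∀ t : ℝ, t ≠ 0 → b t ≠ 0 := fun t ht hh => ht (hb (hh.trans z0.symm))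
    exact three 1 2 3 (by norm_num) (by norm_num) (by norm_num) (nz 1 (by norm_num))
      (nz 2 (by norm_num)) (nz 3 (by norm_num))
  · by_cases z1 : b 1 = 0
    · have nz : ∀ t : ℝ, t ≠ 1 → b t ≠ 0 := fun t ht hh => ht (hb (hh.trans z1.symm))
      exact three 0 2 3 (by norm_num) (by norm_num) (by norm_num) z0 (nz 2 (by norm_num))
        (nz 3 (by norm_num))
    · by_cases z2 : b 2 = 0
      · have nz : ∀ t : ℝ, t ≠ 2 → b t ≠ 0 := fun t ht hh => ht (hb (hh.trans z2.symm))
        exact three 0 1 3 (by norm_num) (by norm_num) (by norm_num) z0 z1 (nz 3 (by norm_num))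
      · exact three 0 1 2 (by norm_num) (by norm_num) (by norm_num) z0 z1 z2

/-- the point `(p, t)` of `ℝ^(m+1)` -/
def pt {m : ℕ} (p : Fin m → ℝ) (t : ℝ) : Fin (m + 1) → ℝ := Fin.snoc (α := fun _ => ℝ) p t

theorem head_pt {m : ℕ} (p : Fin m → ℝ) (t : ℝ) : head (pt p t) = p := by
  funext j; simp [head, pt]

theorem last_pt {m : ℕ} (p : Fin m → ℝ) (t : ℝ) : pt p t (Fin.last m) = t := by
  simp [pt]

theorem lap_add {m : ℕ} (u : (Fin (m + 1) → ℝ) → ℝ) (a : (Fin m → ℝ) → ℝ) (b : ℝ → ℝ)
    (hu : ∀ x, u x = a (head x) + b (x (Fin.last m))) (x : Fin (m + 1) → ℝ) :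
    lap u x = lap a (head x) + deriv (deriv (fun s : ℝ => b (x (Fin.last m) + s))) 0 := by
  unfold lap
  rw [Fin.sum_univ_castSucc]
  congr 1
  · refine Finset.sum_congr rfl fun j _ => ?_
    unfold d2
    have h1 : (fun s : ℝ => u (x + s • Pi.single j.castSucc (1 : ℝ)))
        = fun s : ℝ => a (head x + s • Pi.single j (1 : ℝ)) + b (x (Fin.last m)) := by
      funext s
      rw [hu, head_add_castSucc, last_add_castSucc]
    rw [h1]
    have h2 : deriv (fun s : ℝ => a (head x + s • Pi.single j (1 : ℝ)) + b (x (Fin.last m)))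
        = deriv (fun s : ℝ => a (head x + s • Pi.single j (1 : ℝ))) := by
      funext s
      exact deriv_add_const _
    rw [h2]
  · unfold d2
    have h1 : (fun s : ℝ => u (x + s • Pi.single (Fin.last m) (1 : ℝ)))
        = fun s : ℝ => a (head x) + b (x (Fin.last m) + s) := by
      funext s
      rw [hu, head_add_last, last_add_last]
    rw [h1]
    have h2 : deriv (fun s : ℝ => a (head x) + b (x (Fin.last m) + s))
        = deriv (fun s : ℝ => b (x (Fin.last m) + s)) := by
      funext s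
      exact deriv_const_add _
    rw [h2]

theorem lap_mul {m : ℕ} (u : (Fin (m + 1) → ℝ) → ℝ) (a : (Fin m → ℝ) → ℝ) (b : ℝ → ℝ)
    (hu : ∀ x, u x = a (head x) * b (x (Fin.last m))) (x : Fin (m + 1) → ℝ) :
    lap u x = lap a (head x) * b (x (Fin.last m))
      + a (head x) * deriv (deriv (fun s : ℝ => b (x (Fin.last m) + s))) 0 := by
  unfold lap
  rw [Fin.sum_univ_castSucc, Finset.sum_mul]
  congr 1
  · refine Finset.sum_congr rfl fun j _ => ?_
    unfold d2
    have h1 : (fun s : ℝ => u (x + s • Pi.single j.castSucc (1 : ℝ)))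
        = fun s : ℝ => a (head x + s • Pi.single j (1 : ℝ)) * b (x (Fin.last m)) := by
      funext s
      rw [hu, head_add_castSucc, last_add_castSucc]
    rw [h1]
    have h2 : deriv (fun s : ℝ => a (head x + s • Pi.single j (1 : ℝ)) * b (x (Fin.last m)))
        = fun s : ℝ => deriv (fun s : ℝ => a (head x + s • Pi.single j (1 : ℝ))) s
            * b (x (Fin.last m)) := by
      funext s
      exact deriv_mul_const_field _
    rw [h2]
    exact deriv_mul_const_field _
  · unfold d2
    have h1 : (fun s : ℝ => u (x + s • Pi.single (Fin.last m) (1 : ℝ)))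
        = fun s : ℝ => a (head x) * b (x (Fin.last m) + s) := by
      funext s
      rw [hu, head_add_last, last_add_last]
    rw [h1]
    have h2 : deriv (fun s : ℝ => a (head x) * b (x (Fin.last m) + s))
        = fun s : ℝ => a (head x) * deriv (fun s : ℝ => b (x (Fin.last m) + s)) s := by
      funext s
      exact deriv_const_mul_field _
    rw [h2]
    exact deriv_const_mul_field _

/-- `u` is one-dimensional: `u x = h (e · x)` for a unit vector `e` and a function `h`. -/
def OneDimensional {n : ℕ} (u : (Fin n → ℝ) → ℝ) : Prop :=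
  ∃ e : Fin n → ℝ, ∑ i, e i ^ 2 = 1 ∧ ∃ h : ℝ → ℝ, ∀ x, u x = h (∑ i, e i * x i)

theorem oneDimensional_of_last {m : ℕ} (u : (Fin (m + 1) → ℝ) → ℝ) (h : ℝ → ℝ)
    (hu : ∀ x, u x = h (x (Fin.last m))) : OneDimensional u := by
  refine ⟨Pi.single (Fin.last m) 1, ?_, h, ?_⟩
  · simp [Pi.single_apply]
  · intro x
    rw [hu]
    simp [Pi.single_apply]

theorem d1_add {m : ℕ} (u : (Fin (m + 1) → ℝ) → ℝ) (a : (Fin m → ℝ) → ℝ) (b : ℝ → ℝ)
    (hu : ∀ x, u x = a (head x) + b (x (Fin.last m))) (x : Fin (m + 1) → ℝ) :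
    d1 u (Fin.last m) x = deriv b (x (Fin.last m)) := by
  unfold d1
  have h1 : (fun s : ℝ => u (x + s • Pi.single (Fin.last m) (1 : ℝ)))
      = fun s : ℝ => a (head x) + b (x (Fin.last m) + s) := by
    funext s
    rw [hu, head_add_last, last_add_last]
  rw [h1, deriv_const_add, deriv_comp_const_add, add_zero]

theorem d1_mul {m : ℕ} (u : (Fin (m + 1) → ℝ) → ℝ) (a : (Fin m → ℝ) → ℝ) (b : ℝ → ℝ)
    (hu : ∀ x, u x = a (head x) * b (x (Fin.last m))) (x : Fin (m + 1) → ℝ) :
    d1 u (Fin.last m) x = a (head x) * deriv b (x (Fin.last m)) := by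
  unfold d1
  have h1 : (fun s : ℝ => u (x + s • Pi.single (Fin.last m) (1 : ℝ)))
      = fun s : ℝ => a (head x) * b (x (Fin.last m) + s) := by
    funext s
    rw [hu, head_add_last, last_add_last]
  rw [h1, deriv_const_mul_field, deriv_comp_const_add, add_zero]

/-- **De Giorgi's conjecture for separated solutions, in every dimension.**  Let `u` be a solution of
`Δ u = u³ - u` on `ℝ^(m+1)` with `∂_{m+1} u > 0` everywhere.  If `u (x', t) = a (x') + b (t)` or
`u (x', t) = a (x') * b (t)` for some functions `a` of the first `m` variables and `b` of the last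
variable, then `u` is one-dimensional. -/
theorem result (m : ℕ) (u : (Fin (m + 1) → ℝ) → ℝ)
    (hsol : ∀ x, lap u x = u x ^ 3 - u x)
    (hmono : ∀ x, 0 < d1 u (Fin.last m) x)
    (hsep : (∃ (a : (Fin m → ℝ) → ℝ) (b : ℝ → ℝ), ∀ x, u x = a (head x) + b (x (Fin.last m))) ∨
      (∃ (a : (Fin m → ℝ) → ℝ) (b : ℝ → ℝ), ∀ x, u x = a (head x) * b (x (Fin.last m)))) :
    OneDimensional u := by
  rcases hsep with ⟨a, b, hu⟩ | ⟨a, b, hu⟩
  · have hEq : ∀ p t, lap a p + (fun t => deriv (deriv (fun s : ℝ => b (t + s))) 0) t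
        = (a p + b t) ^ 3 - (a p + b t) := by
      intro p t
      have h1 := hsol (pt p t)
      rw [lap_add u a b hu, hu, head_pt, last_pt] at h1
      exact h1
    have hb' : ∀ t, 0 < deriv b t := by
      intro t
      have h1 := hmono (pt 0 t)
      rwa [d1_add u a b hu, last_pt] at h1
    have hinj : Function.Injective b := (strictMono_of_deriv_pos hb').injective
    have hconst := add_core (lap a) a _ b hinj hEq
    refine oneDimensional_of_last u (fun t => a 0 + b t) fun x => ?_
    rw [hu, hconst (head x) 0]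
  · have hEq : ∀ p t, lap a p * b t + a p * (fun t => deriv (deriv (fun s : ℝ => b (t + s))) 0) t
        = (a p * b t) ^ 3 - a p * b t := by
      intro p t
      have h1 := hsol (pt p t)
      rw [lap_mul u a b hu, hu, head_pt, last_pt] at h1
      exact h1
    have hpos : ∀ p t, 0 < a p * deriv b t := by
      intro p t
      have h1 := hmono (pt p t)
      rwa [d1_mul u a b hu, head_pt, last_pt] at h1
    have ha : ∀ p, a p ≠ 0 := by
      intro p h0
      have := hpos p 0
      rw [h0, zero_mul] at this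
      exact lt_irrefl _ this
    have hinj : Function.Injective b := by
      rcases lt_or_gt_of_ne (ha 0) with hneg | hpos0
      · refine (strictAnti_of_deriv_neg fun t => ?_).injective
        have := hpos 0 t
        by_contra hcon
        have hge : 0 ≤ deriv b t := not_lt.1 hcon
        nlinarith
      · refine (strictMono_of_deriv_pos fun t => ?_).injective
        have := hpos 0 t
        by_contra hcon
        have hle : deriv b t ≤ 0 := not_lt.1 hcon
        nlinarith
    have hsq := mul_core (lap a) a _ b hinj ha hEq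
    have hconst : ∀ p, a p = a 0 := by
      intro p
      rcases sq_eq_sq_iff_eq_or_eq_neg.1 (hsq p 0) with hh | hh
      · exact hh
      · exfalso
        have h1 := hpos p 0
        have h2 := hpos 0 0
        rw [hh] at h1
        nlinarith
    refine oneDimensional_of_last u (fun t => a 0 * b t) fun x => ?_
    rw [hu, hconst (head x)]

end Vale.Agent.Results.P134.SeparableSolutions
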